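import Vale.Agent.P108.Final

namespace Vale.Agent.Results.P108.LargeK

open MeasureTheory Vale.Agent.P108

theorem result :
    (∃ k₀ : ℝ, ∀ k : ℝ, k₀ ≤ |k| → 0 < ksEntropy volume (stdMap k)) ∧
      0 < volume {k : ℝ | 0 < ksEntropy volume (stdMap k)} := by
  refine ⟨large, ?_⟩
  obtain ⟨k₀, h⟩ := large
  refine lt_of_lt_of_le ?_ (measure_mono (s := Set.Ici k₀) fun k hk => h k (le_trans hk (le_abs_self k)))
  simp

end Vale.Agent.Results.P108.LargeK
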